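import Vale.Agent.Lib.P125.Final

/-!
# P125: the summing operators have a uniform Markov type gain

`g : S → ℝⁿ` is a map on the state space of a stationary reversible finite chain, with every step
of `ℓ₁` norm at most one.  The image of the displacement under the summing operator
`Σₙ : ℓ₁ⁿ → ℓ_∞ⁿ`, `(Σₙ a) k = ∑_{j ≤ k} a j`, grows sub-ballistically with a rate free of `n`:
its mean sup norm after `t` steps is at most `15 t^(11/12)`.
-/

namespace Vale.Agent.Results.P125.A_summing_gain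

open Vale.Agent.Lib.P125

/-- Norm `‖·‖` on `Fin n → ℝ` below is the sup norm of Mathlib.  Sums over `x, z` with the weights
`π x * (P ^ t) x z` are expectations over `(Z_0, Z_t)`. -/
theorem result.{u} (S : Type u) [Fintype S] [DecidableEq S]
    (π : S → ℝ) (P : Matrix S S ℝ) (n : ℕ) (g : S → Fin n → ℝ)
    (hπ0 : ∀ x, 0 ≤ π x) (hπ1 : ∑ x, π x = 1)
    (hP0 : ∀ x y, 0 ≤ P x y) (hP1 : ∀ x, ∑ y, P x y = 1)
    (hrev : ∀ x y, π x * P x y = π y * P y x)
    (hstep : ∀ x y, π x * P x y ≠ 0 → ∑ j, |g y j - g x j| ≤ 1)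
    (t : ℕ) (ht : 1 ≤ t) :
    (∀ r : ℕ, 1 ≤ r →
      ∑ x, ∑ z, π x * (P ^ t) x z *
          ‖fun k : Fin n => ∑ j ∈ Finset.univ.filter (fun j : Fin n => j ≤ k), (g z j - g x j)‖ ^ 3
        ≤ 171 * (t : ℝ) ^ 2 * ((r : ℝ) ^ 3 + (t : ℝ) / (r : ℝ))) ∧
    ∑ x, ∑ z, π x * (P ^ t) x z *
        ‖fun k : Fin n => ∑ j ∈ Finset.univ.filter (fun j : Fin n => j ≤ k), (g z j - g x j)‖ ^ 3
      ≤ 2907 * (t : ℝ) ^ ((11 : ℝ) / 4) ∧
    ∑ x, ∑ z, π x * (P ^ t) x z *
        ‖fun k : Fin n => ∑ j ∈ Finset.univ.filter (fun j : Fin n => j ≤ k), (g z j - g x j)‖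
      ≤ 15 * (t : ℝ) ^ ((11 : ℝ) / 12) := by
  classical
  let C : RevChain S :=
    { pi := π, P := P, pi_nonneg := hπ0, pi_sum := hπ1, P_nonneg := hP0, P_sum := hP1, rev := hrev }
  let u : S → ℕ → ℝ := fun x j => if h : j < n then g x ⟨j, h⟩ else 0
  have hu : ∀ (x : S) (j : Fin n), u x j = g x j := fun x j => by
    simp only [u, j.isLt, dif_pos]
  have hstep' : ∀ a b, C.pi a * C.P a b ≠ 0 → ∑ j ∈ Finset.range n, |u b j - u a j| ≤ 1 := by
    intro a b hab
    have h1 := hstep a b hab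
    have h2 := Fin.sum_univ_eq_sum_range (fun j => |u b j - u a j|) n
    rw [← h2]
    simp only [hu]
    exact h1
  let F : S → S → Fin n → ℝ := fun x z k =>
    ∑ j ∈ Finset.univ.filter (fun j : Fin n => j ≤ k), (g z j - g x j)
  have hF : ∀ x z (k : Fin n), F x z k = ww u (k + 1) z - ww u (k + 1) x := by
    intro x z k
    have h1 : F x z k = ∑ j : Fin n, (if (j : ℕ) ≤ k then u z j - u x j else 0) := by
      simp only [F, Finset.sum_filter, hu, Fin.le_def]
    have h2 := Fin.sum_univ_eq_sum_range (fun j : ℕ => if j ≤ k then u z j - u x j else 0) n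
    rw [h1, h2, ← Finset.sum_filter]
    have h3 : (Finset.range n).filter (fun j : ℕ => j ≤ k) = Finset.range (k + 1) := by
      ext j
      simp only [Finset.mem_filter, Finset.mem_range]
      have := k.isLt
      omega
    rw [h3, Finset.sum_sub_distrib]
    rfl
  have hHnn : ∀ x z, 0 ≤ RevChain.HH u n x z := fun x z => by
    unfold RevChain.HH
    refine (abs_nonneg (ww u 0 z - ww u 0 x)).trans ?_
    exact Finset.le_sup' (fun k => |ww u k z - ww u k x|) (Finset.mem_range.mpr (Nat.succ_pos n))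
  have hnorm : ∀ x z, ‖F x z‖ ≤ RevChain.HH u n x z := by
    intro x z
    rw [pi_norm_le_iff_of_nonneg (hHnn x z)]
    intro k
    rw [Real.norm_eq_abs, hF]
    unfold RevChain.HH
    exact Finset.le_sup' (fun k => |ww u k z - ww u k x|)
      (Finset.mem_range.mpr (by have := k.isLt; omega))
  have hw : ∀ x z, 0 ≤ π x * (P ^ t) x z := fun x z => mul_nonneg (hπ0 x) (C.Q_nonneg t x z)
  have h3 : ∀ r : ℕ, 1 ≤ r → ∑ x, ∑ z, π x * (P ^ t) x z * ‖F x z‖ ^ 3
      ≤ 171 * (t : ℝ) ^ 2 * ((r : ℝ) ^ 3 + (t : ℝ) / (r : ℝ)) := by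
    intro r hr
    refine le_trans ?_ (C.moment_edges u hstep' hr ht)
    refine Finset.sum_le_sum fun x _ => Finset.sum_le_sum fun z _ => ?_
    refine mul_le_mul_of_nonneg_left ?_ (hw x z)
    exact pow_le_pow_left₀ (norm_nonneg _) (hnorm x z) 3
  have h4 := optimize ht h3
  have h5 : (∑ x, ∑ z, π x * (P ^ t) x z * ‖F x z‖) ^ 3
      ≤ ∑ x, ∑ z, π x * (P ^ t) x z * ‖F x z‖ ^ 3 :=
    C.two_point_jensen t (fun x z => ‖F x z‖) (fun _ _ => norm_nonneg _)
  exact ⟨h3, h4, first_moment_of_cube ht h5 h4⟩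

end Vale.Agent.Results.P125.A_summing_gain
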